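import Vale.Agent.P091Q.Main

namespace Vale.Agent.Results.P091.Beyond

open MeasureTheory Real Filter Topology Vale.Agent.P091

theorem result (φ : ℝ → ℝ) (hmono : MonotoneOn φ (Set.Ici 0)) (hpos : ∀ u, 0 ≤ u → 0 ≤ φ u)
    (hsmall : Tendsto (fun u => φ u / (u * √(Real.log u * Real.log (Real.log (Real.log u)))))
      atTop (𝓝 0)) :
    ∃ f : ℝ → ℂ, Function.Periodic f (2 * π) ∧ IntervalIntegrable f volume 0 (2 * π) ∧
      (∫⁻ x in Set.Ioc 0 (2 * π), ENNReal.ofReal (φ ‖f x‖)) < ⊤ ∧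
      ∀ x : ℝ, ¬ BddAbove (Set.range fun N : ℕ => ‖S f N x‖) :=
  Vale.Agent.P091Q.main_all φ ⟨hmono, hpos, hsmall⟩

end Vale.Agent.Results.P091.Beyond
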