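import Vale.Agent.P091K.Main

namespace Vale.Agent.Results.P091.Endpoint

open MeasureTheory Real Vale.Agent.P091

theorem result : ∃ f : ℝ → ℂ, Function.Periodic f (2 * π) ∧
    IntervalIntegrable f volume 0 (2 * π) ∧
    (∫⁻ x in Set.Ioc 0 (2 * π), ENNReal.ofReal (‖f x‖ * √(Real.log (2 + ‖f x‖)))) < ⊤ ∧
    ∀ x : ℝ, ¬ BddAbove (Set.range fun N : ℕ => ‖S f N x‖) :=
  Vale.Agent.P091K.main_all

end Vale.Agent.Results.P091.Endpoint
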