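import Vale.Agent.P091E.Main

open MeasureTheory Filter Topology

theorem Vale.Agent.Results.P091.Everywhere.result (φ : ℝ → ℝ)
    (hm : MonotoneOn φ (Set.Ici 0)) (h0 : ∀ u, 0 ≤ u → 0 ≤ φ u)
    (ho : Tendsto (fun u => φ u / (u * √(Real.log u))) atTop (𝓝 0)) :
    ∃ f : ℝ → ℂ, Measurable f ∧ Function.Periodic f (2 * Real.pi) ∧
      IntervalIntegrable f volume 0 (2 * Real.pi) ∧
      ∫⁻ x in Set.Ioc 0 (2 * Real.pi), ENNReal.ofReal (φ ‖f x‖) < ⊤ ∧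
      ∀ x : ℝ, ¬ BddAbove (Set.range fun N : ℕ => ‖Vale.Agent.P091.S f N x‖) :=
  Vale.Agent.P091E.every ⟨hm, h0, ho⟩
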